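import Vale.Agent.P254.S.H151.Spec

/-! P254, line (SP_0), row SP-HAD (helper427): Hadamard in the eigenbasis, Parseval, Bessel. -/

set_option autoImplicit false
set_option linter.unusedSectionVars false

open MeasureTheory Matrix

namespace Vale.Agent.P254.SP427

variable {ι κ : Type*} [Fintype ι] [DecidableEq ι] [Fintype κ] [DecidableEq κ]

/-- the columns of a matrix -/
def col (V : Matrix ι ι ℝ) (p : ι) : ι → ℝ := fun k => V k p

theorem quad_pos {C V : Matrix ι ι ℝ} (hC : C.PosDef) (hV : Vᵀ * V = 1) (p : ι) :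
    0 < (Vᵀ * C * V) p p := by
  rw [S151.quad_col]
  have h1 : (fun k => V k p) ≠ 0 := by
    intro h
    have h2 := congrFun (congrFun hV p) p
    rw [Matrix.mul_apply, one_apply_eq] at h2
    have h3 : ∀ k, V k p = 0 := fun k => congrFun h k
    simp [h3] at h2
  have h2 := hC.dotProduct_mulVec_pos h1
  rwa [star_trivial] at h2

/-- Hadamard: `log det C ≤ ∑ log ⟨v_p, C v_p⟩` in every orthonormal basis -/
theorem log_det_le_sum_log {C V : Matrix ι ι ℝ} (hC : C.PosDef) (hV : Vᵀ * V = 1) :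
    Real.log C.det ≤ ∑ p, Real.log ((Vᵀ * C * V) p p) := by
  have h1 := S151.log_det_le hC hV (c := fun p => ((Vᵀ * C * V) p p)⁻¹)
    fun p => inv_pos.2 (quad_pos hC hV p)
  refine h1.trans (le_of_eq (Finset.sum_congr rfl fun p _ => ?_))
  rw [inv_mul_cancel₀ (quad_pos hC hV p).ne', Real.log_inv]
  ring

/-- `log det C ≤ ∑ log ⟨v_p, C v_p⟩`, vector form -/
theorem log_det_le_sum_log' {C V : Matrix ι ι ℝ} (hC : C.PosDef) (hV : Vᵀ * V = 1) :
    Real.log C.det ≤ ∑ p, Real.log (col V p ⬝ᵥ (C *ᵥ col V p)) := by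
  refine (log_det_le_sum_log hC hV).trans (le_of_eq (Finset.sum_congr rfl fun p _ => ?_))
  rw [S151.quad_col]
  rfl

/-- Parseval for the columns -/
theorem sum_sq_col {V : Matrix ι ι ℝ} (hV : Vᵀ * V = 1) (B : Matrix κ ι ℝ) :
    ∑ p, ∑ i, (B *ᵥ col V p) i ^ 2 = ∑ i, ∑ j, B i j ^ 2 := by
  have hV' : V * Vᵀ = 1 := mul_eq_one_comm.1 hV
  rw [Finset.sum_comm]
  refine Finset.sum_congr rfl fun i _ => ?_
  have h1 : ∀ p, (B *ᵥ col V p) i = ∑ j, B i j * V j p := fun p => rfl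
  have h2 : ∀ j k, ∑ p, V j p * V k p = if j = k then 1 else 0 := by
    intro j k
    have := congrFun (congrFun hV' j) k
    rw [Matrix.mul_apply, one_apply] at this
    exact this
  calc ∑ p, (B *ᵥ col V p) i ^ 2 = ∑ p, ∑ j, ∑ k, B i j * B i k * (V j p * V k p) := by
        refine Finset.sum_congr rfl fun p _ => ?_
        rw [h1, sq, Finset.sum_mul_sum]
        exact Finset.sum_congr rfl fun j _ => Finset.sum_congr rfl fun k _ => by ring
    _ = ∑ j, ∑ k, B i j * B i k * ∑ p, V j p * V k p := by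
        rw [Finset.sum_comm]
        refine Finset.sum_congr rfl fun j _ => ?_
        rw [Finset.sum_comm]
        exact Finset.sum_congr rfl fun k _ => (Finset.mul_sum _ _ _).symm
    _ = ∑ j, B i j ^ 2 := by
        refine Finset.sum_congr rfl fun j _ => ?_
        simp [h2, sq]

/-- Bessel for an orthogonal family with possibly zero members -/
theorem bessel {W : ι → κ → ℝ} {q : ι → ℝ}
    (hW : ∀ p p', ∑ k, W p k * W p' k = if p = p' then q p else 0) (b : κ → ℝ) :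
    ∑ p, (∑ k, b k * W p k) ^ 2 / q p ≤ ∑ k, b k ^ 2 := by
  have hz : ∀ p, q p = 0 → ∀ k, W p k = 0 := by
    intro p hp k
    have h1 := hW p p
    rw [if_pos rfl, hp] at h1
    have h2 := (Finset.sum_eq_zero_iff_of_nonneg (fun k _ => mul_self_nonneg (W p k))).1 h1 k
      (Finset.mem_univ k)
    exact mul_self_eq_zero.1 h2
  set x : ι → ℝ := fun p => ∑ k, b k * W p k with hx
  set c : ι → ℝ := fun p => x p / q p with hc
  have h0 : 0 ≤ ∑ k, (b k - ∑ p, c p * W p k) ^ 2 := Finset.sum_nonneg fun k _ => sq_nonneg _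
  have h1 : ∑ k, (b k - ∑ p, c p * W p k) ^ 2 =
      ∑ k, b k ^ 2 - 2 * ∑ p, c p * x p + ∑ p, c p ^ 2 * q p := by
    have e1 : ∀ k, (b k - ∑ p, c p * W p k) ^ 2 =
        b k ^ 2 - 2 * ∑ p, c p * (b k * W p k) +
          ∑ p, ∑ p', c p * c p' * (W p k * W p' k) := by
      intro k
      have e2 : (∑ p, c p * W p k) ^ 2 = ∑ p, ∑ p', c p * c p' * (W p k * W p' k) := by
        rw [sq, Finset.sum_mul_sum]
        exact Finset.sum_congr rfl fun p _ => Finset.sum_congr rfl fun p' _ => by ring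
      have e3 : b k * ∑ p, c p * W p k = ∑ p, c p * (b k * W p k) := by
        rw [Finset.mul_sum]
        exact Finset.sum_congr rfl fun p _ => by ring
      rw [← e2, ← e3]
      ring
    simp_rw [e1]
    rw [Finset.sum_add_distrib, Finset.sum_sub_distrib, ← Finset.mul_sum]
    congr 1
    · congr 2
      rw [Finset.sum_comm]
      refine Finset.sum_congr rfl fun p _ => ?_
      rw [← Finset.mul_sum]
    · rw [Finset.sum_comm]
      refine Finset.sum_congr rfl fun p _ => ?_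
      rw [Finset.sum_comm]
      have e4 : ∀ p', ∑ k, c p * c p' * (W p k * W p' k) =
          if p = p' then c p * c p' * q p else 0 := by
        intro p'
        rw [← Finset.mul_sum, hW]
        split_ifs <;> simp
      simp_rw [e4]
      simp [sq]
  have h2 : ∀ p, c p * x p = x p ^ 2 / q p := fun p => by rw [hc]; ring
  have h3 : ∀ p, c p ^ 2 * q p = x p ^ 2 / q p := by
    intro p
    by_cases hq : q p = 0
    · rw [hq]; simp
    · rw [hc]; field_simp
  rw [h1] at h0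
  simp_rw [h2, h3] at h0
  linarith

/-- `K = ∑ A_a²` -/
def KK (A : κ → Matrix ι ι ℝ) : Matrix ι ι ℝ := ∑ a, A a * A a

theorem quad_KK {A : κ → Matrix ι ι ℝ} (hA : ∀ a, (A a)ᵀ = A a) (v w : ι → ℝ) :
    v ⬝ᵥ (KK A *ᵥ w) = ∑ a, ∑ i, (A a *ᵥ v) i * (A a *ᵥ w) i := by
  unfold KK
  rw [Matrix.sum_mulVec, dotProduct_sum]
  refine Finset.sum_congr rfl fun a _ => ?_
  rw [← Matrix.mulVec_mulVec, Matrix.dotProduct_mulVec, ← Matrix.mulVec_transpose, hA]
  rfl

/-- the eigenbasis of `K = ∑ A_a²` -/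
theorem exists_eig {A : κ → Matrix ι ι ℝ} (hA : ∀ a, (A a)ᵀ = A a) :
    ∃ (V : Matrix ι ι ℝ) (q : ι → ℝ), Vᵀ * V = 1 ∧ (∀ p, 0 ≤ q p) ∧
      (∀ p, KK A *ᵥ col V p = q p • col V p) ∧
      ∀ p p', ∑ a, ∑ i, (A a *ᵥ col V p) i * (A a *ᵥ col V p') i = if p = p' then q p else 0 := by
  have hK : (KK A).IsHermitian := by
    rw [Matrix.IsHermitian, conjTranspose_eq_transpose_of_trivial]
    unfold KK
    rw [transpose_sum]
    exact Finset.sum_congr rfl fun a _ => by rw [transpose_mul, hA]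
  obtain ⟨V, q, hV, hd⟩ := S151.exists_diag hK
  have hcol : ∀ p, KK A *ᵥ col V p = q p • col V p := by
    intro p
    have h1 : KK A * V = V * diagonal q := by
      rw [hd, Matrix.mul_assoc, hV, Matrix.mul_one]
    funext i
    have h2 := congrFun (congrFun h1 i) p
    rw [mul_diagonal] at h2
    show (KK A * V) i p = _
    rw [h2, Pi.smul_apply, smul_eq_mul, mul_comm]
    rfl
  have horth : ∀ p p', ∑ a, ∑ i, (A a *ᵥ col V p) i * (A a *ᵥ col V p') i =
      if p = p' then q p else 0 := by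
    intro p p'
    rw [← quad_KK hA, hcol, dotProduct_smul, smul_eq_mul]
    have h2 := congrFun (congrFun hV p) p'
    rw [Matrix.mul_apply, one_apply] at h2
    have h3 : col V p ⬝ᵥ col V p' = if p = p' then 1 else 0 := h2
    rw [h3]
    split_ifs with h
    · rw [h, mul_one]
    · rw [mul_zero]
  refine ⟨V, q, hV, fun p => ?_, hcol, horth⟩
  have h1 := horth p p
  rw [if_pos rfl] at h1
  rw [← h1]
  exact Finset.sum_nonneg fun a _ => Finset.sum_nonneg fun i _ => mul_self_nonneg _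

/-- **Bessel budget**: `∑_p |∑_a B_a A_a v_p|² / q_p ≤ ∑_a |B_a|²` -/
theorem bessel_KK {A : κ → Matrix ι ι ℝ} {V : Matrix ι ι ℝ} {q : ι → ℝ}
    (h : ∀ p p', ∑ a, ∑ i, (A a *ᵥ col V p) i * (A a *ᵥ col V p') i = if p = p' then q p else 0)
    (B : κ → Matrix ι ι ℝ) :
    ∑ p, (∑ i, (∑ a, (B a *ᵥ (A a *ᵥ col V p)) i) ^ 2) / q p ≤ ∑ a, ∑ i, ∑ j, B a i j ^ 2 := by
  have hW : ∀ p p', ∑ k : κ × ι, (A k.1 *ᵥ col V p) k.2 * (A k.1 *ᵥ col V p') k.2 =
      if p = p' then q p else 0 := by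
    intro p p'
    rw [Fintype.sum_prod_type]
    exact h p p'
  have h1 : ∀ i, ∑ p, (∑ a, (B a *ᵥ (A a *ᵥ col V p)) i) ^ 2 / q p ≤ ∑ a, ∑ j, B a i j ^ 2 := by
    intro i
    have h2 := bessel hW (fun k : κ × ι => B k.1 i k.2)
    simp only [Fintype.sum_prod_type] at h2
    exact h2
  calc ∑ p, (∑ i, (∑ a, (B a *ᵥ (A a *ᵥ col V p)) i) ^ 2) / q p
      = ∑ i, ∑ p, (∑ a, (B a *ᵥ (A a *ᵥ col V p)) i) ^ 2 / q p := by
        rw [Finset.sum_comm]
        exact Finset.sum_congr rfl fun p _ => Finset.sum_div _ _ _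
    _ ≤ ∑ i, ∑ a, ∑ j, B a i j ^ 2 := Finset.sum_le_sum fun i _ => h1 i
    _ = ∑ a, ∑ i, ∑ j, B a i j ^ 2 := Finset.sum_comm

/-- `A_a v_p = 0` when `q_p = 0` -/
theorem col_zero {A : κ → Matrix ι ι ℝ} {V : Matrix ι ι ℝ} {q : ι → ℝ}
    (h : ∀ p p', ∑ a, ∑ i, (A a *ᵥ col V p) i * (A a *ᵥ col V p') i = if p = p' then q p else 0)
    {p : ι} (hp : q p = 0) (a : κ) : A a *ᵥ col V p = 0 := by
  have h1 := h p p
  rw [if_pos rfl, hp] at h1
  have h2 := (Finset.sum_eq_zero_iff_of_nonneg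
    (fun a _ => Finset.sum_nonneg fun i _ => mul_self_nonneg ((A a *ᵥ col V p) i))).1 h1 a
    (Finset.mem_univ a)
  funext i
  have h3 := (Finset.sum_eq_zero_iff_of_nonneg
    (fun i _ => mul_self_nonneg ((A a *ᵥ col V p) i))).1 h2 i (Finset.mem_univ i)
  exact mul_self_eq_zero.1 h3

end Vale.Agent.P254.SP427
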