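import Vale.Agent.P254.SP.IfaceB
import Vale.Agent.P254.SP.H427.Had

/-! P254, line (SP_0), rows StmtBes and StmtHad of `SP/IfaceB.lean` (helper427), and the eigenbasis
of `K = ∑ A_a²` in the row form used by the assembly. -/

set_option autoImplicit false
set_option linter.unusedSectionVars false

open MeasureTheory Matrix

namespace Vale.Agent.P254.SP427

open Vale.Agent.P254.SP

variable {n : ℕ}

/-- the matrix with columns `e p` -/
def mat (e : Fin n → Fin n → ℝ) : Matrix (Fin n) (Fin n) ℝ := fun i p => e p i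

theorem col_mat (e : Fin n → Fin n → ℝ) (p : Fin n) : col (mat e) p = e p := rfl

theorem mat_orth {e : Fin n → Fin n → ℝ}
    (he : ∀ p p', ∑ i, e p i * e p' i = if p = p' then 1 else 0) : (mat e)ᵀ * mat e = 1 := by
  ext p p'
  rw [Matrix.mul_apply, one_apply]
  exact he p p'

theorem orth_rows {e : Fin n → Fin n → ℝ} {A : Fin n → Matrix (Fin n) (Fin n) ℝ} {q : Fin n → ℝ}
    (hA : ∀ a, (A a).IsSymm)
    (he : ∀ p p', ∑ i, e p i * e p' i = if p = p' then 1 else 0)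
    (hq : ∀ p, (∑ a, A a * A a).mulVec (e p) = q p • e p) (p p' : Fin n) :
    ∑ a, ∑ i, (A a *ᵥ e p) i * (A a *ᵥ e p') i = if p = p' then q p else 0 := by
  rw [← quad_KK (fun a => (hA a).eq)]
  unfold SP427.KK
  rw [hq, dotProduct_smul, smul_eq_mul]
  have h3 : e p ⬝ᵥ e p' = if p = p' then 1 else 0 := he p p'
  rw [h3]
  split_ifs with h
  · rw [h, mul_one]
  · rw [mul_zero]

theorem stmtBes : StmtBes := by
  intro n A B hA e q he hq
  have ho := orth_rows hA he hq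
  have h1 : ∀ p p', ∑ a, ∑ i, (A a *ᵥ col (mat e) p) i * (A a *ᵥ col (mat e) p') i =
      if p = p' then q p else 0 := ho
  refine ⟨fun p => ?_, fun p hp a => col_zero h1 hp a, ?_⟩
  · have h2 := ho p p
    rw [if_pos rfl] at h2
    rw [← h2]
    exact Finset.sum_nonneg fun a _ => Finset.sum_nonneg fun i _ => mul_self_nonneg _
  · refine le_trans (le_of_eq (Finset.sum_congr rfl fun p _ => ?_)) (bessel_KK h1 B)
    rw [div_eq_inv_mul]
    rfl

theorem stmtHad : StmtHad := by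
  intro n C hC e he c hc
  have h1 := S151.log_det_le hC (mat_orth he) (c := fun p => (c p)⁻¹) fun p => inv_pos.2 (hc p)
  refine h1.trans (le_of_eq (Finset.sum_congr rfl fun p _ => ?_))
  have h2 : ((mat e)ᵀ * C * mat e) p p = ∑ i, ∑ j, e p i * C i j * e p j := by
    rw [S151.quad_col]
    unfold dotProduct mulVec dotProduct
    refine Finset.sum_congr rfl fun i _ => ?_
    rw [Finset.mul_sum]
    exact Finset.sum_congr rfl fun j _ => by unfold mat; ring
  rw [h2, Real.log_inv]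
  ring

/-- the eigenbasis of `K = ∑ A_a²`, as an orthonormal family of vectors -/
theorem exists_eig' {A : Fin n → Matrix (Fin n) (Fin n) ℝ} (hA : ∀ a, (A a).IsSymm) :
    ∃ (e : Fin n → Fin n → ℝ) (q : Fin n → ℝ),
      (∀ p p', ∑ i, e p i * e p' i = if p = p' then 1 else 0) ∧
      (∀ p, (∑ a, A a * A a).mulVec (e p) = q p • e p) ∧ ∀ p, 0 ≤ q p := by
  obtain ⟨V, q, hV, hq, hc, -⟩ := exists_eig fun a => (hA a).eq
  refine ⟨fun p i => V i p, q, fun p p' => ?_, hc, hq⟩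
  have h2 := congrFun (congrFun hV p) p'
  rw [Matrix.mul_apply, one_apply] at h2
  exact h2

/-- Parseval over an orthonormal family: `∑_p |B e_p|² = ∑_ij B_ij²` -/
theorem sum_sq_fam {e : Fin n → Fin n → ℝ}
    (he : ∀ p p', ∑ i, e p i * e p' i = if p = p' then 1 else 0) (B : Matrix (Fin n) (Fin n) ℝ) :
    ∑ p, ∑ i, (B *ᵥ e p) i ^ 2 = ∑ i, ∑ j, B i j ^ 2 := sum_sq_col (mat_orth he) B

/-- dual Parseval: `∑_p ⟨u, e_p⟩² = |u|²` -/
theorem sum_inner_sq {e : Fin n → Fin n → ℝ}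
    (he : ∀ p p', ∑ i, e p i * e p' i = if p = p' then 1 else 0) (u : Fin n → ℝ) :
    ∑ p, (∑ i, u i * e p i) ^ 2 = ∑ i, u i ^ 2 := by
  have h1 := sum_sq_col (κ := Unit) (mat_orth he) (fun _ j => u j)
  simpa [mulVec, dotProduct, col_mat] using h1

/-- resolution of the identity in the frame: `∑_p (Uᵀ e_p)_i² = 1` -/
theorem sum_frame_sq {e : Fin n → Fin n → ℝ}
    (he : ∀ p p', ∑ i, e p i * e p' i = if p = p' then 1 else 0) {U : Matrix (Fin n) (Fin n) ℝ}
    (hU : U * Uᵀ = 1) (i : Fin n) : ∑ p, ((Uᵀ *ᵥ e p) i) ^ 2 = 1 := by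
  have h1 := sum_inner_sq he (fun j => U j i)
  have h2 : ∑ j, U j i ^ 2 = 1 := by
    have h3 : Uᵀ * U = 1 := mul_eq_one_comm.1 hU
    have h4 := congrFun (congrFun h3 i) i
    rw [Matrix.mul_apply, one_apply_eq] at h4
    rw [← h4]
    exact Finset.sum_congr rfl fun j _ => by rw [transpose_apply, sq]
  rw [h2] at h1
  exact h1

/-- `∑_p ∑_i f_i (Uᵀ e_p)_i² = ∑_i f_i` -/
theorem sum_frame_weight {e : Fin n → Fin n → ℝ}
    (he : ∀ p p', ∑ i, e p i * e p' i = if p = p' then 1 else 0) {U : Matrix (Fin n) (Fin n) ℝ}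
    (hU : U * Uᵀ = 1) (f : Fin n → ℝ) : ∑ p, ∑ i, f i * ((Uᵀ *ᵥ e p) i) ^ 2 = ∑ i, f i := by
  rw [Finset.sum_comm]
  refine Finset.sum_congr rfl fun i _ => ?_
  rw [← Finset.mul_sum, sum_frame_sq he hU, mul_one]

/-- frame invariance of the Hilbert-Schmidt norm of one column: `|Uᵀ w|² = |w|²` -/
theorem frame_norm {U : Matrix (Fin n) (Fin n) ℝ} (hU : U * Uᵀ = 1) (w : Fin n → ℝ) :
    ∑ i, ((Uᵀ *ᵥ w) i) ^ 2 = ∑ i, w i ^ 2 := by
  have h3 : Uᵀ * U = 1 := mul_eq_one_comm.1 hU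
  have h1 := S151.norm_trans h3 w
  rw [h1]
  unfold dotProduct
  exact Finset.sum_congr rfl fun i _ => by ring

/-- Parseval for a matrix written in the frame: `∑_ij (Uᵀ B U)_ij² = ∑_ij B_ij²` -/
theorem frame_hs {U : Matrix (Fin n) (Fin n) ℝ} (hU : U * Uᵀ = 1) (B : Matrix (Fin n) (Fin n) ℝ) :
    ∑ i, ∑ j, ((Uᵀ * B * U) i j) ^ 2 = ∑ i, ∑ j, B i j ^ 2 := by
  have h3 : Uᵀ * U = 1 := mul_eq_one_comm.1 hU
  have h1 := sum_sq_col (κ := Fin n) h3 B
  rw [← h1, Finset.sum_comm]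
  refine Finset.sum_congr rfl fun p _ => ?_
  rw [← frame_norm hU (B *ᵥ col U p)]
  refine Finset.sum_congr rfl fun i _ => ?_
  rw [Matrix.mul_assoc, Matrix.mul_apply]
  rfl

end Vale.Agent.P254.SP427
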